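import Mathlib
import Vale.Agent.Lib.P227.LogSum

/-!
P227: the logarithmic Brunn-Minkowski inequality is stable under Cartesian products.

For bounded sets containing the origin (in particular for origin-symmetric convex bodies)
`K₁, L₁ ⊆ ℝ^ι` and `K₂, L₂ ⊆ ℝ^κ` and `0 ≤ lam ≤ 1`:

* the logarithmic combination of the products `K₁ × K₂` and `L₁ × L₂` (in `ℝ^(ι ⊕ κ)`) is the
  product of the logarithmic combinations of the factors;
* hence its volume is the product of the two volumes;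
* hence, if the logarithmic Brunn-Minkowski inequality holds for the pair `(K₁, L₁)` and for
  the pair `(K₂, L₂)`, then it holds for the pair `(K₁ × K₂, L₁ × L₂)`.
-/

namespace Vale.Agent.Results.P227.ProductClosure

open Vale.Agent.Lib.P227 MeasureTheory

theorem result {ι κ : Type*} [Fintype ι] [Fintype κ] (lam : ℝ) (h0 : 0 ≤ lam) (h1 : lam ≤ 1)
    (K₁ L₁ : Set (ι → ℝ)) (K₂ L₂ : Set (κ → ℝ))
    (hK₁ : Bornology.IsBounded K₁) (hL₁ : Bornology.IsBounded L₁)
    (hK₂ : Bornology.IsBounded K₂) (hL₂ : Bornology.IsBounded L₂)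
    (zK₁ : (0 : ι → ℝ) ∈ K₁) (zL₁ : (0 : ι → ℝ) ∈ L₁)
    (zK₂ : (0 : κ → ℝ) ∈ K₂) (zL₂ : (0 : κ → ℝ) ∈ L₂) :
    logSum lam (prodSet K₁ K₂) (prodSet L₁ L₂) =
        prodSet (logSum lam K₁ L₁) (logSum lam K₂ L₂) ∧
      volume (logSum lam (prodSet K₁ K₂) (prodSet L₁ L₂)) =
        volume (logSum lam K₁ L₁) * volume (logSum lam K₂ L₂) ∧
      (volume K₁ ^ (1 - lam) * volume L₁ ^ lam ≤ volume (logSum lam K₁ L₁) →
        volume K₂ ^ (1 - lam) * volume L₂ ^ lam ≤ volume (logSum lam K₂ L₂) →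
        volume (prodSet K₁ K₂) ^ (1 - lam) * volume (prodSet L₁ L₂) ^ lam ≤
          volume (logSum lam (prodSet K₁ K₂) (prodSet L₁ L₂))) := by
  have hset := logSum_prod h0 h1 hK₁ hL₁ hK₂ hL₂ zK₁ zL₁ zK₂ zL₂
  have hvol : volume (logSum lam (prodSet K₁ K₂) (prodSet L₁ L₂)) =
      volume (logSum lam K₁ L₁) * volume (logSum lam K₂ L₂) := by
    rw [hset, volume_prodSet]
  refine ⟨hset, hvol, ?_⟩
  intro hA hB
  rw [hvol, volume_prodSet, volume_prodSet,
    ENNReal.mul_rpow_of_nonneg _ _ (by linarith : (0 : ℝ) ≤ 1 - lam),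
    ENNReal.mul_rpow_of_nonneg _ _ h0]
  calc volume K₁ ^ (1 - lam) * volume K₂ ^ (1 - lam) * (volume L₁ ^ lam * volume L₂ ^ lam)
      = volume K₁ ^ (1 - lam) * volume L₁ ^ lam * (volume K₂ ^ (1 - lam) * volume L₂ ^ lam) := by
        ring
    _ ≤ volume (logSum lam K₁ L₁) * volume (logSum lam K₂ L₂) := mul_le_mul' hA hB

end Vale.Agent.Results.P227.ProductClosure
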