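import Mathlib
import Vale.Agent.Lib.P227.LogSum
import Vale.Agent.Lib.P227.Dilates

/-!
P227: the logarithmic Brunn-Minkowski inequality for pairs with dilated direct summands.

For bounded sets containing the origin (in particular for origin-symmetric convex bodies) and
`0 ≤ lam ≤ 1`:

* (1) for `s > 0` the logarithmic combination of `K` and its dilate `s K` contains `s ^ lam K`,
  and the logarithmic Brunn-Minkowski inequality holds for the pair `(K, s K)`;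
* (2) the inequality holds for every pair `(K₁ × K₂, s K₁ × t K₂)`, `s, t > 0`;
* (3) if the inequality holds for a pair `(K₁, L₁)`, then it holds for the pair
  `(K₁ × K₂, L₁ × t K₂)`, `t > 0`.
-/

namespace Vale.Agent.Results.P227.ProductsOfDilates

open Vale.Agent.Lib.P227 MeasureTheory Pointwise

theorem result {ι κ : Type*} [Fintype ι] [Fintype κ] (lam : ℝ) (h0 : 0 ≤ lam) (h1 : lam ≤ 1) :
    (∀ (K : Set (ι → ℝ)) (s : ℝ), Bornology.IsBounded K → (0 : ι → ℝ) ∈ K → 0 < s →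
      (s ^ lam) • K ⊆ logSum lam K (s • K) ∧
        volume K ^ (1 - lam) * volume (s • K) ^ lam ≤ volume (logSum lam K (s • K))) ∧
    (∀ (K₁ : Set (ι → ℝ)) (K₂ : Set (κ → ℝ)) (s t : ℝ),
      Bornology.IsBounded K₁ → Bornology.IsBounded K₂ →
      (0 : ι → ℝ) ∈ K₁ → (0 : κ → ℝ) ∈ K₂ → 0 < s → 0 < t →
      volume (prodSet K₁ K₂) ^ (1 - lam) * volume (prodSet (s • K₁) (t • K₂)) ^ lam ≤
        volume (logSum lam (prodSet K₁ K₂) (prodSet (s • K₁) (t • K₂)))) ∧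
    (∀ (K₁ L₁ : Set (ι → ℝ)) (K₂ : Set (κ → ℝ)) (t : ℝ),
      Bornology.IsBounded K₁ → Bornology.IsBounded L₁ → Bornology.IsBounded K₂ →
      (0 : ι → ℝ) ∈ K₁ → (0 : ι → ℝ) ∈ L₁ → (0 : κ → ℝ) ∈ K₂ → 0 < t →
      volume K₁ ^ (1 - lam) * volume L₁ ^ lam ≤ volume (logSum lam K₁ L₁) →
      volume (prodSet K₁ K₂) ^ (1 - lam) * volume (prodSet L₁ (t • K₂)) ^ lam ≤
        volume (logSum lam (prodSet K₁ K₂) (prodSet L₁ (t • K₂)))) := by
  have key : ∀ (K₁ L₁ : Set (ι → ℝ)) (K₂ : Set (κ → ℝ)) (t : ℝ),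
      Bornology.IsBounded K₁ → Bornology.IsBounded L₁ → Bornology.IsBounded K₂ →
      (0 : ι → ℝ) ∈ K₁ → (0 : ι → ℝ) ∈ L₁ → (0 : κ → ℝ) ∈ K₂ → 0 < t →
      volume K₁ ^ (1 - lam) * volume L₁ ^ lam ≤ volume (logSum lam K₁ L₁) →
      volume (prodSet K₁ K₂) ^ (1 - lam) * volume (prodSet L₁ (t • K₂)) ^ lam ≤
        volume (logSum lam (prodSet K₁ K₂) (prodSet L₁ (t • K₂))) := by
    intro K₁ L₁ K₂ t hK₁ hL₁ hK₂ zK₁ zL₁ zK₂ ht hA
    exact logBM_prod h0 h1 hK₁ hL₁ hK₂ (hK₂.smul₀ t) zK₁ zL₁ zK₂ ⟨0, zK₂, by simp⟩ hA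
      (logBM_dilate h0 h1 hK₂ zK₂ ht)
  refine ⟨?_, ?_, key⟩
  · intro K s hK zK hs
    exact ⟨dilate_subset_logSum hK zK hs, logBM_dilate h0 h1 hK zK hs⟩
  · intro K₁ K₂ s t hK₁ hK₂ zK₁ zK₂ hs ht
    exact key K₁ (s • K₁) K₂ t hK₁ (hK₁.smul₀ s) hK₂ zK₁ ⟨0, zK₁, by simp⟩ zK₂ ht
      (logBM_dilate h0 h1 hK₁ zK₁ hs)

end Vale.Agent.Results.P227.ProductsOfDilates
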