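import Mathlib
import Vale.Agent.Lib.P227.LogSum
import Vale.Agent.Lib.P227.Dilates
import Vale.Agent.Lib.P227.DilatesEq

/-!
P227: equality in the logarithmic Brunn-Minkowski inequality for pairs with dilated direct
summands.

For closed bounded convex sets containing the origin (in particular for origin-symmetric convex
bodies) and `0 ≤ lam ≤ 1`:

* (1) for `s > 0` the logarithmic combination of `K` and its dilate `s K` is exactly
  `s ^ lam K`, and its volume is `|K| ^ (1 - lam) * |s K| ^ lam`;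
* (2) for `s, t > 0` the logarithmic combination of `K₁ × K₂` and `s K₁ × t K₂` is exactly
  `(s ^ lam K₁) × (t ^ lam K₂)`, and its volume is
  `|K₁ × K₂| ^ (1 - lam) * |s K₁ × t K₂| ^ lam`: equality holds in the inequality.
-/

namespace Vale.Agent.Results.P227.ProductsOfDilatesEquality

open Vale.Agent.Lib.P227 MeasureTheory Pointwise

theorem result {ι κ : Type*} [Fintype ι] [Fintype κ] (lam : ℝ) (h0 : 0 ≤ lam) (h1 : lam ≤ 1) :
    (∀ (K : Set (ι → ℝ)) (s : ℝ), Convex ℝ K → IsClosed K → Bornology.IsBounded K →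
      (0 : ι → ℝ) ∈ K → 0 < s →
      logSum lam K (s • K) = (s ^ lam) • K ∧
        volume (logSum lam K (s • K)) = volume K ^ (1 - lam) * volume (s • K) ^ lam) ∧
    (∀ (K₁ : Set (ι → ℝ)) (K₂ : Set (κ → ℝ)) (s t : ℝ), Convex ℝ K₁ → Convex ℝ K₂ →
      IsClosed K₁ → IsClosed K₂ → Bornology.IsBounded K₁ → Bornology.IsBounded K₂ →
      (0 : ι → ℝ) ∈ K₁ → (0 : κ → ℝ) ∈ K₂ → 0 < s → 0 < t →
      logSum lam (prodSet K₁ K₂) (prodSet (s • K₁) (t • K₂)) =
          prodSet ((s ^ lam) • K₁) ((t ^ lam) • K₂) ∧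
        volume (logSum lam (prodSet K₁ K₂) (prodSet (s • K₁) (t • K₂))) =
          volume (prodSet K₁ K₂) ^ (1 - lam) * volume (prodSet (s • K₁) (t • K₂)) ^ lam) := by
  refine ⟨?_, ?_⟩
  · intro K s hc hcl hK zK hs
    have hset := logSum_dilate_eq (lam := lam) hc hcl hK zK hs
    refine ⟨hset, ?_⟩
    rw [hset, volume_pow_dilate h0 h1 K hs]
  · intro K₁ K₂ s t c₁ c₂ cl₁ cl₂ hK₁ hK₂ zK₁ zK₂ hs ht
    exact logSum_prod_dilate_eq h0 h1 c₁ c₂ cl₁ cl₂ hK₁ hK₂ zK₁ zK₂ hs ht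

end Vale.Agent.Results.P227.ProductsOfDilatesEquality
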