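import Mathlib
import Vale.Agent.Lib.P227.LogSum
import Vale.Agent.Lib.P227.Dilates
import Vale.Agent.Lib.P227.DilatesEq
import Vale.Agent.Lib.P227.Linear

/-!
P227: invertible linear maps, and equality in the logarithmic Brunn-Minkowski inequality for
pairs with two dilated direct summands with respect to an arbitrary direct sum decomposition.

For `0 ≤ lam ≤ 1` and an invertible real matrix `A` (with inverse `B`):

* (1) for bounded sets `K, L` containing the origin, the logarithmic combination of `A K` and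
  `A L` is the image under `A` of the logarithmic combination of `K` and `L`, and the
  logarithmic Brunn-Minkowski inequality for `(K, L)` implies the one for `(A K, A L)`;
* (2) for closed bounded convex sets `K₁, K₂` containing the origin and `s, t > 0`, equality
  holds in the inequality for the pair `(A (K₁ × K₂), A (s K₁ × t K₂))`.
-/

namespace Vale.Agent.Results.P227.SkewDirectSummands

open Vale.Agent.Lib.P227 MeasureTheory Pointwise Matrix

theorem result {ι κ : Type*} [Fintype ι] [Fintype κ] [DecidableEq ι] [DecidableEq κ] (lam : ℝ)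
    (h0 : 0 ≤ lam) (h1 : lam ≤ 1) :
    (∀ (A B : Matrix ι ι ℝ) (K L : Set (ι → ℝ)), B * A = 1 →
      Bornology.IsBounded K → Bornology.IsBounded L → (0 : ι → ℝ) ∈ K → (0 : ι → ℝ) ∈ L →
      logSum lam ((fun x => A *ᵥ x) '' K) ((fun x => A *ᵥ x) '' L) =
          (fun x => A *ᵥ x) '' logSum lam K L ∧
        (volume K ^ (1 - lam) * volume L ^ lam ≤ volume (logSum lam K L) →
          volume ((fun x => A *ᵥ x) '' K) ^ (1 - lam) *
              volume ((fun x => A *ᵥ x) '' L) ^ lam ≤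
            volume (logSum lam ((fun x => A *ᵥ x) '' K) ((fun x => A *ᵥ x) '' L)))) ∧
    (∀ (A B : Matrix (ι ⊕ κ) (ι ⊕ κ) ℝ) (K₁ : Set (ι → ℝ)) (K₂ : Set (κ → ℝ)) (s t : ℝ),
      B * A = 1 → Convex ℝ K₁ → Convex ℝ K₂ → IsClosed K₁ → IsClosed K₂ →
      Bornology.IsBounded K₁ → Bornology.IsBounded K₂ →
      (0 : ι → ℝ) ∈ K₁ → (0 : κ → ℝ) ∈ K₂ → 0 < s → 0 < t →
      volume (logSum lam ((fun x => A *ᵥ x) '' prodSet K₁ K₂)
          ((fun x => A *ᵥ x) '' prodSet (s • K₁) (t • K₂))) =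
        volume ((fun x => A *ᵥ x) '' prodSet K₁ K₂) ^ (1 - lam) *
          volume ((fun x => A *ᵥ x) '' prodSet (s • K₁) (t • K₂)) ^ lam) := by
  refine ⟨?_, ?_⟩
  · intro A B K L hBA hK hL zK zL
    exact ⟨logSum_image A B hBA hK hL zK zL, (logBM_image h0 h1 A B hBA hK hL zK zL).1⟩
  · intro A B K₁ K₂ s t hBA c₁ c₂ cl₁ cl₂ hK₁ hK₂ zK₁ zK₂ hs ht
    have hP : Bornology.IsBounded (prodSet K₁ K₂) := bounded_prodSet hK₁ hK₂
    have hQ : Bornology.IsBounded (prodSet (s • K₁) (t • K₂)) :=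
      bounded_prodSet (hK₁.smul₀ s) (hK₂.smul₀ t)
    have zP : (0 : ι ⊕ κ → ℝ) ∈ prodSet K₁ K₂ := zero_mem_prodSet zK₁ zK₂
    have zQ : (0 : ι ⊕ κ → ℝ) ∈ prodSet (s • K₁) (t • K₂) :=
      zero_mem_prodSet ⟨0, zK₁, by simp⟩ ⟨0, zK₂, by simp⟩
    exact (logBM_image h0 h1 A B hBA hP hQ zP zQ).2
      (logSum_prod_dilate_eq h0 h1 c₁ c₂ cl₁ cl₂ hK₁ hK₂ zK₁ zK₂ hs ht).2

end Vale.Agent.Results.P227.SkewDirectSummands
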